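import Vale.Agent.P207.N7.H547.AffLemB

/-!
# P207, line N7, row T3: pairs (frame, leaf) near the diagonal

* `near_open`: an invariant open condition on `(x, ξ)` which holds for `ξ = em x` holds for all
  pairs with `P.Nr ε x ξ`, some `ε > 0`;
* `near_forall`, `near_bdd`: the same with a compact parameter, and for bounds;
* `far_near`: if `ξ ≠ ep x` then `P.Nr ε (φ (n T) x) ξ` for large `n`.
-/

set_option linter.all false

open Set Filter Topology Metric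
open scoped ContDiff

noncomputable section

namespace Vale.Agent.P207.N4.Y.H988

open Vale.Agent.P207.N3

variable [Dim]

variable {Γ X B : Type} [Group Γ] [MetricSpace X] [ProperSpace X] [MulAction Γ X]
  [IsIsometricSMul Γ X] [TopologicalSpace B] [CompactSpace B] [T2Space B] [MulAction Γ B]
  [ContinuousConstSMul Γ B] {L : Leaf Γ X B} [MeasurableSpace B] [BorelSpace B] {V : Type}
  [NormedAddCommGroup V] [NormedSpace ℝ V] [FiniteDimensional ℝ V] (P : Pic L V)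

theorem zero_mem3 : (0 : E2) ∈ ball (0 : E2) 3 := mem_ball_self (by norm_num)

theorem nu0_cont : Continuous fun p : X × B => P.Bu.nu p.1 p.2 0 := by
  have h1 : Continuous fun p : X × B => ((p, (0 : E2)) : (X × B) × E2) :=
    continuous_id.prodMk continuous_const
  exact P.Bu.nu_cont.comp_continuous h1 fun p => ⟨mem_univ _, zero_mem3⟩

theorem gr0_cont : Continuous fun p : X × B => P.gr p.1 p.2 0 := by
  have h1 : Continuous fun p : X × B => ((p, (0 : E2)) : (X × B) × E2) :=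
    continuous_id.prodMk continuous_const
  exact P.gr_jc.continuousOn.comp_continuous h1 fun p => P.Af.zero_dT p.1

theorem nu0_smul (g : Γ) (x : X) (ξ : B) : P.Bu.nu (g • x) (g • ξ) 0 = P.Bu.nu x ξ 0 :=
  P.Bu.nu_smul g x ξ 0 zero_mem3

theorem gr0_smul (g : Γ) (x : X) (ξ : B) : P.gr (g • x) (g • ξ) 0 = P.gr x ξ 0 :=
  P.gr_smul g (P.Af.zero_dT x) ξ

theorem Nr_smul {ε : ℝ} (g : Γ) (x : X) (ξ : B) : P.Nr ε (g • x) (g • ξ) ↔ P.Nr ε x ξ := by
  unfold Pic.Nr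
  rw [nu0_smul, gr0_smul]

theorem Nr.mono {P : Pic L V} {ε ε' : ℝ} {x : X} {ξ : B} (h : P.Nr ε x ξ) (he : ε ≤ ε') :
    P.Nr ε' x ξ := ⟨h.1, h.2.trans he⟩

theorem gr0_em (x : X) : P.gr x (L.em x) 0 = 0 := P.gr_em x (P.Af.zero_dT x)

/-- the only pair with vanishing gradient is the diagonal one -/
theorem eq_em {x : X} {ξ : B} (h0 : 0 ≤ P.Bu.nu x ξ 0) (h1 : P.gr x ξ 0 = 0) : ξ = L.em x := by
  have h2 : gradient (P.Bu.be x ξ) 0 = 0 := by
    rw [P.gr_zero] at h1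
    exact (smul_eq_zero.1 h1).resolve_left (inv_ne_zero P.Af.c_pos.ne')
  have h3 := P.Bu.be_crit x
  exact P.Bu.cov_inj x ξ (L.em x) 0 zero_mem3 h0 (P.Bu.nu_em x).le (by rw [h2, h3])

/-- an invariant open condition near the diagonal -/
theorem near_open {U : Set (X × B)} (hU : IsOpen U) (hinv : ∀ (g : Γ) x ξ,
    (g • x, g • ξ) ∈ U → (x, ξ) ∈ U) (hd : ∀ x, (x, L.em x) ∈ U) :
    ∃ ε : ℝ, 0 < ε ∧ ∀ x ξ, P.Nr ε x ξ → (x, ξ) ∈ U := by
  obtain ⟨K, hK, hK'⟩ := L.cocompact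
  set f : X × B → ℝ := fun p => max ‖P.gr p.1 p.2 0‖ (-P.Bu.nu p.1 p.2 0) with hf
  have hfc : Continuous f := (gr0_cont P).norm.max (nu0_cont P).neg
  have hC : IsCompact ((K ×ˢ (univ : Set B)) \ U) := (hK.prod isCompact_univ).diff hU
  have hpos : ∀ p ∈ (K ×ˢ (univ : Set B)) \ U, 0 < f p := by
    rintro ⟨x, ξ⟩ ⟨-, hp⟩
    by_contra hc
    push Not at hc
    have h1 : ‖P.gr x ξ 0‖ ≤ 0 := (le_max_left _ _).trans hc
    have h2 : -P.Bu.nu x ξ 0 ≤ 0 := (le_max_right _ _).trans hc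
    have h3 := eq_em P (by linarith) (norm_le_zero_iff.1 h1)
    exact hp (h3 ▸ hd x)
  rcases ((K ×ˢ (univ : Set B)) \ U).eq_empty_or_nonempty with he | hne
  · refine ⟨1, one_pos, fun x ξ _ => ?_⟩
    obtain ⟨g, hg⟩ := hK' x
    refine hinv g x ξ ?_
    by_contra hc
    exact (he ▸ (⟨⟨hg, mem_univ _⟩, hc⟩ : (g • x, g • ξ) ∈ (K ×ˢ (univ : Set B)) \ U) :
      (g • x, g • ξ) ∈ (∅ : Set (X × B)))
  · obtain ⟨p₀, hp₀, hmin⟩ := hC.exists_isMinOn hne hfc.continuousOn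
    refine ⟨f p₀ / 2, half_pos (hpos p₀ hp₀), fun x ξ hN => ?_⟩
    obtain ⟨g, hg⟩ := hK' x
    refine hinv g x ξ ?_
    by_contra hc
    have h1 : f p₀ ≤ f (g • x, g • ξ) := hmin ⟨⟨hg, mem_univ _⟩, hc⟩
    have h2 : P.Nr (f p₀ / 2) (g • x) (g • ξ) := (Nr_smul P g x ξ).2 hN
    have h3 : f (g • x, g • ξ) ≤ f p₀ / 2 := by
      refine max_le h2.2 ?_
      have := h2.1
      have h4 := hpos p₀ hp₀
      change -P.Bu.nu (g • x) (g • ξ) 0 ≤ _
      linarith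
    have h4 := hpos p₀ hp₀
    linarith

/-- an invariant open condition near the diagonal, with a compact parameter -/
theorem near_forall {E : Type*} [TopologicalSpace E] {O : Set ((X × B) × E)} (hO : IsOpen O)
    {Y : Set E} (hY : IsCompact Y)
    (hinv : ∀ (g : Γ) x ξ y, ((g • x, g • ξ), y) ∈ O → ((x, ξ), y) ∈ O)
    (hd : ∀ x, ∀ y ∈ Y, ((x, L.em x), y) ∈ O) :
    ∃ ε : ℝ, 0 < ε ∧ ∀ x ξ, P.Nr ε x ξ → ∀ y ∈ Y, ((x, ξ), y) ∈ O := by
  have hU : IsOpen {p : X × B | ∀ y ∈ Y, (p, y) ∈ O} := by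
    rw [isOpen_iff_mem_nhds]
    intro p hp
    refine hY.eventually_forall_of_forall_eventually (P := fun p y => (p, y) ∈ O) fun y hy => ?_
    exact hO.mem_nhds (hp y hy)
  exact near_open P hU (fun g x ξ h y hy => hinv g x ξ y (h y hy)) hd

/-- an invariant bound near the diagonal, with a compact parameter -/
theorem near_bdd {E : Type*} [TopologicalSpace E] {O : Set ((X × B) × E)} (hO : IsOpen O)
    {Y : Set E} (hY : IsCompact Y) {Φ : (X × B) × E → ℝ} (hΦ : ContinuousOn Φ O)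
    (hinv : ∀ (g : Γ) x ξ y, ((g • x, g • ξ), y) ∈ O → ((x, ξ), y) ∈ O)
    (hinv' : ∀ (g : Γ) x ξ y, ((x, ξ), y) ∈ O → Φ ((g • x, g • ξ), y) = Φ ((x, ξ), y))
    (hd : ∀ x, ∀ y ∈ Y, ((x, L.em x), y) ∈ O) :
    ∃ ε C : ℝ, 0 < ε ∧ 0 ≤ C ∧ ∀ x ξ, P.Nr ε x ξ → ∀ y ∈ Y, ((x, ξ), y) ∈ O ∧ Φ ((x, ξ), y) ≤ C := by
  obtain ⟨K, hK, hK'⟩ := L.cocompact
  have h1 : ContinuousOn (fun p : X × E => Φ ((p.1, L.em p.1), p.2)) (K ×ˢ Y) := by
    refine hΦ.comp (Continuous.continuousOn ?_) fun p hp => hd p.1 p.2 hp.2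
    exact (continuous_fst.prodMk (L.em_cont.comp continuous_fst)).prodMk continuous_snd
  obtain ⟨C, hC⟩ := (hK.prod hY).bddAbove_image h1
  set C' : ℝ := |C| + 1 with hC'
  have hC0 : 0 < C' := by positivity
  have h2 : IsOpen (O ∩ Φ ⁻¹' (Iio C')) := hΦ.isOpen_inter_preimage hO isOpen_Iio
  have hem : ∀ (g : Γ) (x : X), g • L.em x = L.em (g • x) := fun g x => (L.em_smul g x).symm
  obtain ⟨ε, hε, h3⟩ := near_forall P h2 hY (fun g x ξ y h => by
      refine ⟨hinv g x ξ y h.1, ?_⟩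
      have h4 := h.2
      rw [mem_preimage, hinv' g x ξ y (hinv g x ξ y h.1)] at h4
      exact h4) (fun x y hy => by
      refine ⟨hd x y hy, ?_⟩
      obtain ⟨g, hg⟩ := hK' x
      rw [mem_preimage, ← hinv' g x _ y (hd x y hy), hem, mem_Iio]
      have h4 : Φ ((g • x, L.em (g • x)), y) ≤ C :=
        hC ⟨(g • x, y), ⟨hg, hy⟩, rfl⟩
      exact lt_of_le_of_lt (h4.trans (le_abs_self C)) (lt_add_one _))
  refine ⟨ε, C', hε, hC0.le, fun x ξ hN y hy => ?_⟩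
  have h5 := h3 x ξ hN y hy
  exact ⟨h5.1, (mem_Iio.1 h5.2).le⟩

/-- two close frames: the leaf of the second is near the first one -/
theorem dist_near {ε : ℝ} (hε : 0 < ε) : ∃ δ : ℝ, 0 < δ ∧ ∀ x z, dist x z < δ →
    P.Nr ε x (L.em z) := by
  obtain ⟨K, hK, hK'⟩ := L.cocompact
  set W : Set (X × X) := {p | 0 < P.Bu.nu p.1 (L.em p.2) 0 ∧ ‖P.gr p.1 (L.em p.2) 0‖ < ε} with hW
  have hc : Continuous fun p : X × X => ((p.1, L.em p.2) : X × B) :=
    continuous_fst.prodMk (L.em_cont.comp continuous_snd)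
  have hWo : IsOpen W :=
    (isOpen_lt continuous_const ((nu0_cont P).comp hc)).inter
      (isOpen_lt ((gr0_cont P).comp hc).norm continuous_const)
  have hD : IsCompact ((fun x : X => (x, x)) '' K) :=
    hK.image (continuous_id.prodMk continuous_id)
  have hsub : (fun x : X => (x, x)) '' K ⊆ W := by
    rintro _ ⟨x, -, rfl⟩
    refine ⟨P.Bu.nu_em x, ?_⟩
    rw [gr0_em, norm_zero]
    exact hε
  obtain ⟨δ, hδ, hδW⟩ := hD.exists_thickening_subset_open hWo hsub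
  refine ⟨δ, hδ, fun x z hxz => ?_⟩
  obtain ⟨g, hg⟩ := hK' x
  have h1 : (g • x, g • z) ∈ W := by
    refine hδW ?_
    rw [mem_thickening_iff]
    refine ⟨(g • x, g • x), ⟨g • x, hg, rfl⟩, ?_⟩
    rw [Prod.dist_eq, dist_self, dist_smul, dist_comm z x]
    exact max_lt hδ hxz
  have h2 : P.Nr ε (g • x) (g • L.em z) := by
    rw [← L.em_smul]
    exact ⟨h1.1, h1.2.le⟩
  exact (Nr_smul P g x _).1 h2

/-- the leaf `ξ` becomes close in the future -/
theorem far_near {ε T : ℝ} (hε : 0 < ε) (hT : 0 < T) {x : X} {ξ : B} (h : ξ ≠ L.ep x) :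
    ∃ n : ℕ, P.Nr ε (L.φ ((n : ℝ) * T) x) ξ := by
  obtain ⟨δ, hδ, hδ'⟩ := dist_near P hε
  obtain ⟨C, hC⟩ := L.hol_asym {(ξ, x)} isCompact_singleton (by
    rintro p hp
    rw [mem_singleton_iff.1 hp]
    exact h)
  have hχ := L.χ_pos
  have h1 : Tendsto (fun n : ℕ => C * Real.exp (-L.χ * ((n : ℝ) * T))) atTop (𝓝 (C * 0)) := by
    refine Tendsto.const_mul C (Real.tendsto_exp_atBot.comp ?_)
    have h2 : Tendsto (fun n : ℕ => (n : ℝ) * T) atTop atTop :=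
      tendsto_natCast_atTop_atTop.atTop_mul_const hT
    have h3 := h2.const_mul_atTop_of_neg (neg_neg_of_pos hχ)
    exact h3
  rw [mul_zero] at h1
  obtain ⟨n, hn⟩ := (h1.eventually (gt_mem_nhds hδ)).exists
  refine ⟨n, ?_⟩
  have hn0 : 0 ≤ (n : ℝ) * T := by positivity
  have h4 := hC (ξ, x) (mem_singleton _) _ hn0
  have h5 := hδ' _ _ (h4.trans_lt hn)
  rw [L.em_φ, L.hol_em ξ x h] at h5
  exact h5

end Vale.Agent.P207.N4.Y.H988
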