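import Vale.Agent.P207.N7.H988.T3ZC
import Vale.Agent.P207.N7.H988.T3Q
import Vale.Agent.P207.H761.T3c.T3c
import Vale.Agent.P207.N4.H534.Clock

/-!
# P207, row T3 (Theorem P): the instance of 761's `T3In3` over `Pic`, with the clock, and `P.T3`
-/

set_option maxSynthPendingDepth 3
set_option linter.all false

open Set Filter Topology Metric MeasureTheory
open scoped ContDiff

noncomputable section

namespace Vale.Agent.P207.N4.Y.H988.CT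

open Vale.Agent.P207.N3
open Vale.Agent.P207.H761 (inter' invertible_of_close norm_le_of_close taylor2)
open Vale.Agent.P207.H761.T3c (T3In3)
open H761 (ne_ep hh_flow ch_flow ch_leaf exists_nr AngF BaseCh HqC tr)

variable [Dim]

variable {Γ X B : Type} [Group Γ] [MetricSpace X] [ProperSpace X] [MulAction Γ X]
  [IsIsometricSMul Γ X] [TopologicalSpace B] [CompactSpace B] [T2Space B] [MulAction Γ B]
  [ContinuousConstSMul Γ B] {L : Leaf Γ X B} [MeasurableSpace B] [BorelSpace B] {V : Type}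
  [NormedAddCommGroup V] [NormedSpace ℝ V] [FiniteDimensional ℝ V]

theorem a_aff' (F : Aff L) (x y : X) (h : L.em x = L.em y) :
    ∃ (R : E2 ≃L[ℝ] E2) (b : E2), ∀ η, η ≠ L.em x →
      (2 : ℝ) • F.ch y η = R ((2 : ℝ) • F.ch x η) + b := by
  refine ⟨F.lin x y, -((2 : ℝ) • F.lin x y (F.ch x (L.ep y))), fun η hη => ?_⟩
  rw [ch_leaf F h hη, map_sub, map_smul, smul_sub]
  abel

/-- the time at which the clock shows `n` -/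
def th (P : Pic L V) (n : ℕ) (x : X) : ℝ := Clock.tm L P.Ra.c (n : ℝ) x

theorem clk (P : Pic L V) : Clock.Ok L P.Ra.c P.Ra.c₀ P.Ra.c₁ :=
  ⟨P.Ra.c_cont, P.Ra.c_smul, P.Ra.c_rot, P.Ra.c_flip, P.Ra.c₀_pos, P.Ra.c_lo, P.Ra.c_hi⟩

theorem sg_th (P : Pic L V) (n : ℕ) (x : X) : P.sg (th P n x) x = n := Clock.sg_tm (clk P) _ x

theorem th_nonneg (P : Pic L V) (n : ℕ) (x : X) : 0 ≤ th P n x :=
  Clock.tm_nonneg (clk P) (Nat.cast_nonneg n) x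

theorem b_pos (P : Pic L V) : 0 < P.Ra.b := P.Ra.a_pos.trans_le P.Ra.a_le_b

/-- the data of the instance, `b (1 + η) < a (1 - η) + κ a` -/
structure Gd3 (P : Pic L V) (ρ C E ρ' κ K η : ℝ) : Prop extends BasC P ρ C E (th P 1) where
  κ_pos : 0 < κ
  κ_lt : κ < 1
  η_pos : 0 < η
  η_lt : η < 1
  pin : P.Ra.b * (1 + η) < P.Ra.a * (1 - η) + κ * P.Ra.a
  angr : ∀ x ξ, 0 < P.Bu.nu x ξ 0 → ∀ s : ℝ, 0 ≤ s →
    ‖P.gr (L.φ s x) ξ 0‖ ≤ C * Real.exp (-(P.Ra.a * P.sg s x)) * ‖P.gr x ξ 0‖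
  rall : ∀ t : ℝ, 0 ≤ t → ∀ x q, Real.exp (P.Ra.a * P.sg t x) * ‖q‖ ≤ C * ‖P.Af.P t x q‖ ∧
    ‖P.Af.P t x q‖ ≤ C * Real.exp (P.Ra.b * P.sg t x) * ‖q‖
  sgn : ∀ x ξ, P.Nr ρ x ξ → ∀ t : ℝ, 0 ≤ t →
    |P.sg t x - P.sg t (L.hol ξ x)| ≤ η * P.sg t x
  base : ∀ x ξ, P.Nr ρ' x ξ → ∀ q ∈ ball (0 : E2) 1, ∀ s : ℝ, 0 ≤ s →
    P.Nr ρ (L.φ s (tr L x (P.Af.pt x q))) ξ
  self : ∀ x ξ, P.Nr ρ' x ξ → ∀ s : ℝ, 0 ≤ s → P.Nr ρ (L.φ s x) ξ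
  far : ∀ x ξ, ξ ≠ L.ep x → ∃ n : ℕ, P.Nr ρ' (L.φ n x) ξ
  M_cont : ∀ ξ v, ContinuousOn (fun x => fderiv ℝ (P.Aq x ξ) 0 v) {x | P.Nr ρ x ξ}
  K_nonneg : 0 ≤ K
  F2 : ∀ x ξ, P.Nr ρ x ξ → P.Nr ρ (L.φ (th P 1 x) x) ξ → ∀ v,
    ‖P.Af.P (th P 1 x) (L.hol ξ x) (fderiv ℝ (P.Aq x ξ) 0 v) -
      fderiv ℝ (P.Aq (L.φ (th P 1 x) x) ξ) 0 (P.Af.P (th P 1 x) x v)‖ ≤
      K * ‖P.gr x ξ 0‖ ^ κ * ‖v‖
  F3 : ∀ x ξ, P.Nr ρ x ξ → P.Nr ρ (L.φ (th P 1 x) x) ξ → ∀ w, ‖P.Af.P (th P 1 x) x w‖ ≤ 1 →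
      ‖((P.Af.P (th P 1 x) (L.hol ξ x)).symm
          (Ft P (L.φ (th P 1 x) x) ξ (P.Af.P (th P 1 x) x w)) - Ft P x ξ w) -
        ((P.Af.P (th P 1 x) (L.hol ξ x)).symm (Ft P (L.φ (th P 1 x) x) ξ 0) - Ft P x ξ 0) -
        ((P.Af.P (th P 1 x) (L.hol ξ x)).symm
          (Mx P (L.φ (th P 1 x) x) ξ (P.Af.P (th P 1 x) x w)) - Mx P x ξ w)‖ ≤
        K * ‖P.gr x ξ 0‖ ^ κ * ‖w‖ ^ 2

variable {P : Pic L V} {ρ C E ρ' κ K η : ℝ}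

namespace Gd3

variable (S : Gd3 P ρ C E ρ' κ K η)
include S

theorem CC_ge : 16 ≤ 16 * C ^ 2 + 2 * K ∧ C ≤ 16 * C ^ 2 + 2 * K ∧ K ≤ 16 * C ^ 2 + 2 * K ∧
    4 * C ≤ 16 * C ^ 2 + 2 * K := by
  have h1 := S.C_ge
  have h2 := S.K_nonneg
  refine ⟨?_, ?_, ?_, ?_⟩ <;> nlinarith

theorem hMc (ξ : B) (v : E2) : ContinuousOn (fun x => Mx P x ξ v) {x | P.Nr ρ x ξ} :=
  (S.M_cont ξ v).congr fun _ hx => S.toBasC.Mx_apply hx v

theorem hMic (ξ : B) (v : E2) : ContinuousOn (fun x => (Mx P x ξ).symm v) {x | P.Nr ρ x ξ} := by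
  intro x₀ hx₀
  have h1 := S.hMc ξ ((Mx P x₀ ξ).symm v) x₀ hx₀
  have h2 : Tendsto (fun x => 2 * ‖Mx P x₀ ξ ((Mx P x₀ ξ).symm v) -
      Mx P x ξ ((Mx P x₀ ξ).symm v)‖) (𝓝[{x | P.Nr ρ x ξ}] x₀) (𝓝 (2 * ‖Mx P x₀ ξ
      ((Mx P x₀ ξ).symm v) - Mx P x₀ ξ ((Mx P x₀ ξ).symm v)‖)) :=
    ((tendsto_const_nhds.sub h1).norm).const_mul 2
  rw [sub_self, norm_zero, mul_zero] at h2
  rw [ContinuousWithinAt, tendsto_iff_norm_sub_tendsto_zero]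
  refine squeeze_zero' (Eventually.of_forall fun _ => norm_nonneg _) ?_ h2
  filter_upwards [self_mem_nhdsWithin] with x hx
  have e : (Mx P x ξ).symm v - (Mx P x₀ ξ).symm v = (Mx P x ξ).symm
      (Mx P x₀ ξ ((Mx P x₀ ξ).symm v) - Mx P x ξ ((Mx P x₀ ξ).symm v)) := by
    rw [map_sub, ContinuousLinearEquiv.apply_symm_apply, ContinuousLinearEquiv.symm_apply_apply]
  rw [e]
  exact S.toBasC.Mx_inv hx _

theorem hF1 {x : X} {ξ : B} (h : P.Nr ρ x ξ) {w : E2} (hw : ‖w‖ ≤ 1) :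
    ‖(2 : ℝ) • P.Af.ch (L.hol ξ x) (P.Af.pt x ((1 / 2 : ℝ) • w)) - Ft P x ξ w‖ ≤
      (16 * C ^ 2 + 2 * K) * ‖P.gr x ξ 0‖ ^ κ := by
  have h1 := F1' S.toBasC h hw
  have ht : ‖P.gr x ξ 0‖ ≤ ‖P.gr x ξ 0‖ ^ κ := by
    have h2 := Real.rpow_le_rpow_of_exponent_ge' (norm_nonneg _) (h.2.trans S.ρ_le) S.κ_pos.le
      S.κ_lt.le
    rwa [Real.rpow_one] at h2
  have hC := S.C_ge
  refine h1.trans (mul_le_mul S.CC_ge.2.2.2 ht (norm_nonneg _) ?_)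
  linarith [S.CC_ge.1]

theorem hF2 {x : X} {ξ : B} (h : P.Nr ρ x ξ) (h' : P.Nr ρ (L.φ (th P 1 x) x) ξ) (v : E2) :
    ‖(Mx P (L.φ (th P 1 x) x) ξ).symm (P.Af.P (th P 1 x) (L.hol ξ x) (Mx P x ξ v)) - P.Af.P (th P 1 x) x v‖ ≤
      (16 * C ^ 2 + 2 * K) * ‖P.gr x ξ 0‖ ^ κ * ‖v‖ := by
  have h1 := S.F2 x ξ h h' v
  rw [← S.toBasC.Mx_apply h, ← S.toBasC.Mx_apply h'] at h1
  have e : (Mx P (L.φ (th P 1 x) x) ξ).symm (P.Af.P (th P 1 x) (L.hol ξ x) (Mx P x ξ v)) - P.Af.P (th P 1 x) x v =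
      (Mx P (L.φ (th P 1 x) x) ξ).symm (P.Af.P (th P 1 x) (L.hol ξ x) (Mx P x ξ v) -
        Mx P (L.φ (th P 1 x) x) ξ (P.Af.P (th P 1 x) x v)) := by
    rw [map_sub, ContinuousLinearEquiv.symm_apply_apply]
  have hC : 0 ≤ C ^ 2 := sq_nonneg _
  have ht0 : 0 ≤ ‖P.gr x ξ 0‖ ^ κ := Real.rpow_nonneg (norm_nonneg _) _
  rw [e]
  refine (S.toBasC.Mx_inv h' _).trans ?_
  calc _ ≤ 2 * (K * ‖P.gr x ξ 0‖ ^ κ * ‖v‖) := by linarith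
    _ = 2 * K * (‖P.gr x ξ 0‖ ^ κ * ‖v‖) := by ring
    _ ≤ (16 * C ^ 2 + 2 * K) * (‖P.gr x ξ 0‖ ^ κ * ‖v‖) :=
        mul_le_mul_of_nonneg_right (by linarith) (by positivity)
    _ = _ := by ring

theorem ht_iter {x : X} {ξ : B} (h : P.Nr ρ x ξ) (n : ℕ) :
    ‖P.gr (L.φ (th P n x) x) ξ 0‖ ^ κ ≤
      (16 * C ^ 2 + 2 * K) * Real.exp (-(κ * P.Ra.a)) ^ n * ‖P.gr x ξ 0‖ ^ κ := by
  have h1 := S.angr x ξ h.1 (th P n x) (th_nonneg P n x)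
  rw [sg_th] at h1
  have hC := S.toBasC.C_pos
  have h2 := Real.rpow_le_rpow (norm_nonneg _) h1 S.κ_pos.le
  rw [Real.mul_rpow (by positivity) (norm_nonneg _), Real.mul_rpow hC.le (Real.exp_pos _).le,
    ← Real.exp_mul] at h2
  refine h2.trans ?_
  have h3 : C ^ κ ≤ 16 * C ^ 2 + 2 * K := by
    have h4 := Real.rpow_le_rpow_of_exponent_le S.C_ge S.κ_lt.le
    rw [Real.rpow_one] at h4
    exact h4.trans S.CC_ge.2.1
  have e : Real.exp (-(P.Ra.a * n) * κ) = Real.exp (-(κ * P.Ra.a)) ^ n := by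
    rw [← Real.exp_nat_mul]
    congr 1
    ring
  rw [e]
  have ht0 : 0 ≤ ‖P.gr x ξ 0‖ ^ κ := Real.rpow_nonneg (norm_nonneg _) _
  exact mul_le_mul_of_nonneg_right (mul_le_mul_of_nonneg_right h3 (by positivity)) ht0

/-- the rates at the time `th n x` of a frame `z` whose clock is close to the one of `x` -/
theorem rate_near {x z : X} (hz : ∀ t : ℝ, 0 ≤ t → |P.sg t x - P.sg t z| ≤ η * P.sg t x) (n : ℕ)
    (v : E2) :
    ‖P.Af.P (th P n x) z v‖ ≤ (16 * C ^ 2 + 2 * K) * Real.exp (P.Ra.b * (1 + η)) ^ n * ‖v‖ ∧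
      ‖(P.Af.P (th P n x) z).symm v‖ ≤
        (16 * C ^ 2 + 2 * K) * Real.exp (-(P.Ra.a * (1 - η))) ^ n * ‖v‖ := by
  have ht := th_nonneg P n x
  have h1 := hz (th P n x) ht
  rw [sg_th, abs_le] at h1
  have hC := S.toBasC.C_pos
  have hCC := S.CC_ge.2.1
  constructor
  · refine ((S.rall (th P n x) ht z v).2).trans ?_
    refine mul_le_mul_of_nonneg_right (mul_le_mul hCC ?_ (Real.exp_pos _).le ?_) (norm_nonneg _)
    · rw [← Real.exp_nat_mul, Real.exp_le_exp]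
      have h2 : P.sg (th P n x) z ≤ (1 + η) * n := by linarith [h1.1]
      have h3 := mul_le_mul_of_nonneg_left h2 (b_pos P).le
      calc P.Ra.b * P.sg (th P n x) z ≤ P.Ra.b * ((1 + η) * n) := h3
        _ = n * (P.Ra.b * (1 + η)) := by ring
    · linarith
  · have h2 := (S.rall (th P n x) ht z ((P.Af.P (th P n x) z).symm v)).1
    rw [ContinuousLinearEquiv.apply_symm_apply] at h2
    have h3 : (1 - η) * n ≤ P.sg (th P n x) z := by linarith [h1.2]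
    have h4 : Real.exp (P.Ra.a * ((1 - η) * n)) ≤ Real.exp (P.Ra.a * P.sg (th P n x) z) :=
      Real.exp_le_exp.2 (mul_le_mul_of_nonneg_left h3 P.Ra.a_pos.le)
    have h5 := (mul_le_mul_of_nonneg_right h4
      (norm_nonneg ((P.Af.P (th P n x) z).symm v))).trans h2
    have e : Real.exp (-(P.Ra.a * (1 - η))) ^ n = (Real.exp (P.Ra.a * ((1 - η) * n)))⁻¹ := by
      rw [← Real.exp_nat_mul, ← Real.exp_neg]
      congr 1
      ring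
    have hp := Real.exp_pos (P.Ra.a * ((1 - η) * n))
    rw [e]
    have h6 : ‖(P.Af.P (th P n x) z).symm v‖ ≤
        (Real.exp (P.Ra.a * ((1 - η) * n)))⁻¹ * (C * ‖v‖) := by
      rw [← div_eq_inv_mul, le_div_iff₀ hp, mul_comm]
      exact h5
    refine h6.trans ?_
    have hi : 0 ≤ (Real.exp (P.Ra.a * ((1 - η) * n)))⁻¹ := by positivity
    calc (Real.exp (P.Ra.a * ((1 - η) * n)))⁻¹ * (C * ‖v‖)
        = C * ((Real.exp (P.Ra.a * ((1 - η) * n)))⁻¹ * ‖v‖) := by ring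
      _ ≤ (16 * C ^ 2 + 2 * K) * ((Real.exp (P.Ra.a * ((1 - η) * n)))⁻¹ * ‖v‖) :=
          mul_le_mul_of_nonneg_right hCC (by positivity)
      _ = _ := by ring

end Gd3

/-- the instance -/
def Gd3.toIn (S : Gd3 P ρ C E ρ' κ K η) : T3In3 X B E2 where
  φ := L.φ
  φ_zero := L.φ_zero
  φ_add := L.φ_add
  φ_cont := L.φ_cont
  flip := L.flip
  flip_cont := L.flip_cont
  flip_flip := L.flip_flip
  em := L.em
  em_cont := L.em_cont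
  em_φ := L.em_φ
  ep := L.ep
  ep_flip := L.ep_flip
  ep_φ := H761.ep_φ L
  em_ne_ep := L.em_ne_ep
  hol := L.hol
  hol_em := L.hol_em
  hol_ep := L.hol_ep
  hol_φ := L.hol_φ
  hol_cont := L.hol_cont
  a x η := (2 : ℝ) • P.Af.ch x η
  ai x z := P.Af.pt x ((1 / 2 : ℝ) • z)
  ai_ne x z := P.Af.pt_ne x _
  a_ai x z := by
    rw [P.Af.ch_pt, smul_smul]
    norm_num
  ai_a x η h := by
    rw [smul_smul]
    norm_num
    exact P.Af.pt_ch x η h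
  a_cont := (continuousOn_const (c := (2 : ℝ))).smul P.Af.ch_cont
  ai_cont := P.Af.pt_cont.comp (continuous_fst.prodMk (continuous_snd.const_smul (1 / 2 : ℝ)))
  a_ep x := by rw [← P.Af.pt_zero, P.Af.ch_pt, smul_zero]
  a_aff := a_aff' P.Af
  D := P.Af.P
  a_φ t x η h := by rw [ch_flow P.Af t x h, map_smul]
  th := th P
  th_zero x := by
    rw [th, Nat.cast_zero]
    exact Clock.tm_zero (clk P) x
  th_add m n x := by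
    rw [th, Nat.cast_add, add_comm (m : ℝ)]
    exact Clock.tm_add (clk P) _ _ x
  th_cont n := Clock.tm_cont (clk P) _
  lam := Real.exp (-(P.Ra.a * (1 - η)))
  mu := Real.exp (P.Ra.b * (1 + η))
  lam_pos := Real.exp_pos _
  lam_lt := by
    rw [Real.exp_lt_one_iff]
    have := mul_pos P.Ra.a_pos (sub_pos.2 S.η_lt)
    linarith
  mu_gt := by
    rw [Real.one_lt_exp_iff]
    have := S.η_pos
    have := b_pos P
    positivity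
  lp := Real.exp (-(κ * P.Ra.a))
  lp_pos := Real.exp_pos _
  lp_le := by
    rw [Real.exp_le_one_iff]
    have := mul_pos S.κ_pos P.Ra.a_pos
    linarith
  pinch := by
    rw [← Real.exp_add, ← Real.exp_add, Real.exp_lt_one_iff]
    have := S.pin
    linarith
  C := 16 * C ^ 2 + 2 * K
  C_ge := by linarith [S.CC_ge.1]
  D_le n x v := (S.rate_near (fun t ht => by
    rw [sub_self, abs_zero]
    exact mul_nonneg S.η_pos.le (Clock.sg_nonneg (clk P) ht x)) n v).1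
  D_inv n x v := (S.rate_near (fun t ht => by
    rw [sub_self, abs_zero]
    exact mul_nonneg S.η_pos.le (Clock.sg_nonneg (clk P) ht x)) n v).2
  Cl := {p | P.Nr ρ p.1 p.2}
  D'_le x ξ h n v := by
    have h1 : P.Nr ρ x ξ := by
      have := h 0
      rw [th, Nat.cast_zero, Clock.tm_zero (clk P), L.φ_zero] at this
      exact this
    exact (S.rate_near (S.sgn x ξ h1) n v).1
  D'_inv x ξ h n v := by
    have h1 : P.Nr ρ x ξ := by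
      have := h 0
      rw [th, Nat.cast_zero, Clock.tm_zero (clk P), L.φ_zero] at this
      exact this
    exact (S.rate_near (S.sgn x ξ h1) n v).2
  t x ξ := ‖P.gr x ξ 0‖ ^ κ
  t_nonneg x ξ := Real.rpow_nonneg (norm_nonneg _) _
  t_bd x ξ h := by
    have h1 : P.Nr ρ x ξ := h
    have h2 := Real.rpow_le_one (norm_nonneg (P.gr x ξ 0)) (h1.2.trans S.ρ_le) S.κ_pos.le
    linarith [S.CC_ge.1]
  Cl_ne x ξ h := by
    have h1 : P.Nr ρ x ξ := h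
    exact ne_ep h1.1
  Cl_far x ξ h w hw := by
    have h1 : P.Nr ρ x ξ := h
    refine S.toBasC.pt_ne h1 ?_
    rw [mem_ball_zero_iff, norm_smul, Real.norm_eq_abs, abs_of_pos (by norm_num)]
    linarith
  G := {p | P.Nr ρ' p.1 p.2}
  ρ := 2
  ρ_pos := two_pos
  G_cl x ξ h u hu n := by
    have h1 : P.Nr ρ' x ξ := h
    have h2 : (1 / 2 : ℝ) • u ∈ ball (0 : E2) 1 := by
      rw [mem_ball_zero_iff, norm_smul, Real.norm_eq_abs, abs_of_pos (by norm_num)]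
      linarith
    exact S.base x ξ h1 _ h2 _ (th_nonneg P n _)
  t_iter x ξ h n := by
    have h1 : P.Nr ρ x ξ := by
      have := h 0
      rw [th, Nat.cast_zero, Clock.tm_zero (clk P), L.φ_zero] at this
      exact this
    exact S.ht_iter h1 n
  far x ξ h := by
    obtain ⟨n, hn⟩ := S.far x ξ h
    exact ⟨n, hn⟩
  G_self x ξ h n := S.self x ξ h _ (th_nonneg P n x)
  M := Mx P
  M_le x ξ h v := by
    have h1 : P.Nr ρ x ξ := h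
    exact (S.toBasC.Mx_le h1 v).trans
      (mul_le_mul_of_nonneg_right (by linarith [S.CC_ge.1]) (norm_nonneg _))
  M_inv x ξ h v := by
    have h1 : P.Nr ρ x ξ := h
    exact (S.toBasC.Mx_inv h1 v).trans
      (mul_le_mul_of_nonneg_right (by linarith [S.CC_ge.1]) (norm_nonneg _))
  M_cont := S.hMc
  Mi_cont := S.hMic
  F := Ft P
  F1 x ξ h w hw := S.hF1 h hw
  F0 x ξ h w hw := (F0 S.toBasC h hw).trans
    (mul_le_mul_of_nonneg_right S.CC_ge.2.1 (sq_nonneg _))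
  F2 x ξ h h' v := S.hF2 h h' v
  F3 x ξ h h' w hw hw' := by
    refine (S.F3 x ξ h h' w hw').trans ?_
    exact mul_le_mul_of_nonneg_right (mul_le_mul_of_nonneg_right S.CC_ge.2.2.1
      (Real.rpow_nonneg (norm_nonneg _) _)) (sq_nonneg _)

/-- rescaling -/
theorem scale_deriv {f F : E2 → E2} (h : ∀ q, f q = (1 / 2 : ℝ) • F ((2 : ℝ) • q)) {q : E2}
    {A : E2 →L[ℝ] E2} (hF : HasFDerivAt F A ((2 : ℝ) • q)) : HasFDerivAt f A q := by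
  have h1 : HasFDerivAt (fun q : E2 => (2 : ℝ) • q) ((2 : ℝ) • ContinuousLinearMap.id ℝ E2) q :=
    ((2 : ℝ) • ContinuousLinearMap.id ℝ E2).hasFDerivAt
  have h2 := (hF.comp q h1).const_smul (1 / 2 : ℝ)
  have e : f = fun q => (1 / 2 : ℝ) • F ((2 : ℝ) • q) := funext h
  rw [e]
  refine h2.congr_fderiv ?_
  ext1 v
  change (1 / 2 : ℝ) • A ((2 : ℝ) • v) = A v
  rw [map_smul, smul_smul]
  norm_num

/-- the global part -/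
theorem Gd3.glob (S : Gd3 P ρ C E ρ' κ K η) {x : X} {ξ : B} (h : ξ ≠ L.ep x) {q : E2}
    (hq : P.Af.pt x q ≠ ξ) :
    ContDiffAt ℝ 1 (P.hh x ξ) q ∧ (fderiv ℝ (P.hh x ξ) q).IsInvertible := by
  have h1 : S.toIn.ai x ((2 : ℝ) • q) ≠ S.toIn.em (L.hol ξ x) := by
    change P.Af.pt x ((1 / 2 : ℝ) • ((2 : ℝ) • q)) ≠ L.em (L.hol ξ x)
    rw [L.hol_em _ _ h, smul_smul]
    norm_num
    exact hq
  obtain ⟨h2, h3⟩ := S.toIn.hol_at h1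
  set F : E2 → E2 := fun z => S.toIn.a (L.hol ξ x) (S.toIn.ai x z) with hF
  have e : ∀ q, P.hh x ξ q = (1 / 2 : ℝ) • F ((2 : ℝ) • q) := by
    intro q
    change P.Af.ch (L.hol ξ x) (P.Af.pt x q) = (1 / 2 : ℝ) • ((2 : ℝ) •
      P.Af.ch (L.hol ξ x) (P.Af.pt x ((1 / 2 : ℝ) • ((2 : ℝ) • q))))
    rw [smul_smul, smul_smul]
    norm_num
  have h4 := scale_deriv e (h2.differentiableAt (by norm_num)).hasFDerivAt
  refine ⟨?_, ?_⟩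
  · have e' : P.hh x ξ = fun q => (1 / 2 : ℝ) • F ((2 : ℝ) • q) := funext e
    rw [e']
    have h5 : ContDiffAt ℝ 1 (fun q : E2 => (2 : ℝ) • q) q := contDiffAt_id.const_smul 2
    exact (h2.comp q h5).const_smul (1 / 2 : ℝ)
  · rw [h4.fderiv]
    exact h3

/-- the estimate at the centre -/
theorem Gd3.centre (S : Gd3 P ρ C E ρ' κ K η) : ∃ K' : ℝ, 0 ≤ K' ∧ ∀ x ξ, P.Nr ρ' x ξ →
    DifferentiableAt ℝ (P.hh x ξ) 0 ∧
      ‖fderiv ℝ (P.hh x ξ) 0 - fderiv ℝ (P.Aq x ξ) 0‖ ≤ K' * ‖P.gr x ξ 0‖ ^ κ := by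
  refine ⟨2 * max S.toIn.sys.KK 0, by positivity, fun x ξ h => ?_⟩
  have hG : (x, ξ) ∈ S.toIn.G := h
  have hNr : P.Nr ρ x ξ := by
    have h1 := S.self x ξ h 0 le_rfl
    rwa [L.φ_zero] at h1
  obtain ⟨h1, h2⟩ := S.toIn.good_deriv hG
  set Lx := S.toIn.sys.L (S.toIn.pr x ξ hG) with hLx
  set F : E2 → E2 := fun z => Mx P x ξ ((Mx P x ξ).symm ((2 : ℝ) •
    P.Af.ch (L.hol ξ x) (P.Af.pt x ((1 / 2 : ℝ) • z)))) with hF
  have h3 : HasFDerivAt F ((Mx P x ξ : E2 →L[ℝ] E2).comp Lx) 0 :=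
    (Mx P x ξ : E2 →L[ℝ] E2).hasFDerivAt.comp 0 h1
  have e : ∀ q, P.hh x ξ q = (1 / 2 : ℝ) • F ((2 : ℝ) • q) := by
    intro q
    rw [hF]
    simp only [ContinuousLinearEquiv.apply_symm_apply]
    change P.Af.ch (L.hol ξ x) (P.Af.pt x q) = (1 / 2 : ℝ) • ((2 : ℝ) •
      P.Af.ch (L.hol ξ x) (P.Af.pt x ((1 / 2 : ℝ) • ((2 : ℝ) • q))))
    rw [smul_smul, smul_smul]
    norm_num
  have h4 : HasFDerivAt (P.hh x ξ) ((Mx P x ξ : E2 →L[ℝ] E2).comp Lx) 0 :=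
    scale_deriv e (by rw [smul_zero]; exact h3)
  refine ⟨h4.differentiableAt, ?_⟩
  have hM := Mx_coe (invertible_of_close (S.near x ξ hNr 0 (mem_ball_self one_pos)))
  rw [h4.fderiv, ← hM]
  have e2 : (Mx P x ξ : E2 →L[ℝ] E2).comp Lx - (Mx P x ξ : E2 →L[ℝ] E2) =
      (Mx P x ξ : E2 →L[ℝ] E2).comp (Lx - 1) := by
    ext1 v
    simp
  rw [e2]
  have hn : ‖(Mx P x ξ : E2 →L[ℝ] E2)‖ ≤ 2 :=
    ContinuousLinearMap.opNorm_le_bound _ (by norm_num) fun v => S.toBasC.Mx_le hNr v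
  have ht : 0 ≤ ‖P.gr x ξ 0‖ ^ κ := Real.rpow_nonneg (norm_nonneg _) _
  calc _ ≤ ‖(Mx P x ξ : E2 →L[ℝ] E2)‖ * ‖Lx - 1‖ := ContinuousLinearMap.opNorm_comp_le _ _
    _ ≤ 2 * (S.toIn.sys.KK * ‖P.gr x ξ 0‖ ^ κ) := mul_le_mul hn h2 (norm_nonneg _) (by norm_num)
    _ ≤ 2 * (max S.toIn.sys.KK 0 * ‖P.gr x ξ 0‖ ^ κ) := by
        refine mul_le_mul_of_nonneg_left ?_ (by norm_num)
        exact mul_le_mul_of_nonneg_right (le_max_left _ _) ht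
    _ = _ := by ring

/-- the data of the instance exist -/
theorem exists_gd3 (S : BasC P ρ C E (th P 1))
    (hang : ∀ x ξ, 0 < P.Bu.nu x ξ 0 → ∀ s : ℝ, 0 ≤ s →
      ‖P.gr (L.φ s x) ξ 0‖ ≤ C * Real.exp (-(P.Ra.a * P.sg s x)) * ‖P.gr x ξ 0‖)
    (hall : ∀ t : ℝ, 0 ≤ t → ∀ x q, Real.exp (P.Ra.a * P.sg t x) * ‖q‖ ≤ C * ‖P.Af.P t x q‖ ∧
      ‖P.Af.P t x q‖ ≤ C * Real.exp (P.Ra.b * P.sg t x) * ‖q‖)
    (hη0 : 0 < η) (hη1 : η < 1)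
    (hsg : ∀ x ξ, P.Nr ρ x ξ → ∀ t : ℝ, 0 ≤ t →
      |P.sg t x - P.sg t (L.hol ξ x)| ≤ η * P.sg t x) (hB : BaseCh P ρ)
    (hM : ∀ ξ v, ContinuousOn (fun x => fderiv ℝ (P.Aq x ξ) 0 v) {x | P.Nr ρ x ξ}) :
    ∃ ρ', 0 < ρ' ∧ ρ' ≤ ρ ∧ ∀ κ : ℝ, 0 < κ → κ < 1 →
      P.Ra.b * (1 + η) < P.Ra.a * (1 - η) + κ * P.Ra.a → ∃ K, Gd3 P ρ C E ρ' κ K η := by
  obtain ⟨CB, hCB⟩ := hB
  have hC1 := S.C_ge
  have hCp := S.C_pos
  have hρ := S.ρ_pos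
  have hD : 1 ≤ max CB 1 := le_max_right _ _
  have hDp : 0 < max CB 1 := by linarith
  obtain ⟨ρ', hρ'⟩ : ∃ ρ' : ℝ, ρ' = ρ / (C * max CB 1) := ⟨_, rfl⟩
  have h0 : 0 < ρ' := by rw [hρ']; positivity
  have h1 : C * max CB 1 * ρ' = ρ := by rw [hρ']; field_simp
  have h2 : ρ' ≤ ρ := by
    rw [← h1]
    exact le_mul_of_one_le_left h0.le (one_le_mul_of_one_le_of_one_le hC1 hD)
  have hflow : ∀ x ξ, 0 < P.Bu.nu x ξ 0 → ‖P.gr x ξ 0‖ ≤ max CB 1 * ρ' → ∀ s : ℝ, 0 ≤ s →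
      P.Nr ρ (L.φ s x) ξ := by
    intro x ξ hx hg s hs
    obtain ⟨g1, g2⟩ := S.ang x ξ hx s hs
    refine ⟨g1, g2.trans ?_⟩
    calc C * ‖P.gr x ξ 0‖ ≤ C * (max CB 1 * ρ') := mul_le_mul_of_nonneg_left hg hCp.le
      _ = ρ := by rw [← h1]; ring
  refine ⟨ρ', h0, h2, fun κ hκ0 hκ hp => ?_⟩
  obtain ⟨K₁, hK₁0, hK₁⟩ := S.f2 hκ0 hκ
  obtain ⟨K₂, hK₂0, hK₂⟩ := F3 S hκ0 hκ
  refine ⟨max K₁ K₂, ⟨S, hκ0, hκ, hη0, hη1, hp, hang, hall, hsg, ?_, ?_,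
    fun x ξ h => exists_nr h0 h, hM,
    hK₁0.trans (le_max_left _ _), fun x ξ h h' v => (hK₁ x ξ h h' v).trans ?_,
    fun x ξ h h' w hw => (hK₂ x ξ h h' w hw).trans ?_⟩⟩
  · intro x ξ h q hq s hs
    obtain ⟨g1, g2⟩ := hCB x ξ (nr_mono h2 h) q hq
    refine hflow _ ξ g1 (g2.trans ?_) s hs
    exact mul_le_mul (le_max_left _ _) h.2 (norm_nonneg _) hDp.le
  · intro x ξ h s hs
    exact hflow x ξ h.1 (h.2.trans (le_mul_of_one_le_left h0.le hD)) s hs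
  · exact mul_le_mul_of_nonneg_right (mul_le_mul_of_nonneg_right (le_max_left _ _)
      (Real.rpow_nonneg (norm_nonneg _) _)) (norm_nonneg _)
  · exact mul_le_mul_of_nonneg_right (mul_le_mul_of_nonneg_right (le_max_right _ _)
      (Real.rpow_nonneg (norm_nonneg _) _)) (sq_nonneg _)

/-- every exponent `κ < 1` -/
theorem rpow_max {t κ κ' : ℝ} (ht : 0 ≤ t) (ht1 : t ≤ 1) (h0 : 0 < κ') (h : κ ≤ κ') :
    t ^ κ' ≤ t ^ κ := by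
  rcases ht.eq_or_lt with h1 | h1
  · rw [← h1, Real.zero_rpow h0.ne']
    exact Real.rpow_nonneg le_rfl _
  · exact Real.rpow_le_rpow_of_exponent_ge h1 ht1 h

/-- (P2) the clocks of a frame and of the close frame on the leaf `ξ` -/
def SgN (P : Pic L V) : Prop := ∀ η > 0, ∃ ε > 0, ∀ x ξ, P.Nr ε x ξ → ∀ t : ℝ, 0 ≤ t →
  |P.sg t x - P.sg t (L.hol ξ x)| ≤ η * t

/-- **(T3) from its inputs, with the clock** -/
theorem t3_of_C {ε₀ : ℝ} (hb : P.Ra.b < 2 * P.Ra.a) (h0 : 0 < ε₀) (hRP : P.RateP)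
    (hge : ∀ t : ℝ, 0 ≤ t → ∀ x q, ‖q‖ ≤ ‖P.Af.P t x q‖)
    (hup : ∃ E : ℝ, 1 ≤ E ∧ ∀ x z q, ‖P.Af.P (th P 1 x) z q‖ ≤ E * ‖q‖)
    (hall : ∃ C : ℝ, 1 ≤ C ∧ ∀ t : ℝ, 0 ≤ t → ∀ x q, Real.exp (P.Ra.a * P.sg t x) * ‖q‖ ≤
      C * ‖P.Af.P t x q‖ ∧ ‖P.Af.P t x q‖ ≤ C * Real.exp (P.Ra.b * P.sg t x) * ‖q‖)
    (hS : SgN P) (hA : AngF P) (h2a : P.T2a ε₀) (h2h : P.T2h ε₀) (hH : HqC P ε₀)
    (hB : BaseCh P ε₀)
    (hM : ∀ ξ v, ContinuousOn (fun x => fderiv ℝ (P.Aq x ξ) 0 v) {x | P.Nr ε₀ x ξ}) :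
    ∃ ε₁, 0 < ε₁ ∧ ε₁ ≤ ε₀ ∧ ∀ ε ≤ ε₁, P.T3 ε := by
  have ha := P.Ra.a_pos
  have hab := P.Ra.a_le_b
  have hbp := b_pos P
  -- the loss
  obtain ⟨η, hη⟩ : ∃ η : ℝ, η = (2 * P.Ra.a - P.Ra.b) / (4 * (P.Ra.a + P.Ra.b)) := ⟨_, rfl⟩
  have hη0 : 0 < η := by rw [hη]; apply div_pos <;> linarith
  have hη2 : η * (P.Ra.a + P.Ra.b) = (2 * P.Ra.a - P.Ra.b) / 4 := by
    rw [hη]; field_simp
  have hη1 : η < 1 := by
    rw [hη, div_lt_one (by linarith)]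
    linarith
  obtain ⟨εS, hεS, hSg⟩ := hS (η * P.Ra.c₀) (mul_pos hη0 P.Ra.c₀_pos)
  -- shrink
  obtain ⟨e₀, he₀⟩ : ∃ e : ℝ, e = min ε₀ εS := ⟨_, rfl⟩
  have he0 : 0 < e₀ := by rw [he₀]; exact lt_min h0 hεS
  have he1 : e₀ ≤ ε₀ := by rw [he₀]; exact min_le_left _ _
  have he2 : e₀ ≤ εS := by rw [he₀]; exact min_le_right _ _
  have mono2a : ∀ {e : ℝ}, e ≤ ε₀ → P.T2a e := by
    intro e hle
    obtain ⟨a1, a2, a3, C4, a4⟩ := h2a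
    refine ⟨fun κ hκ k hk => ?_, a2, fun x ξ h => a3 x ξ (nr_mono hle h), C4,
      fun x ξ h => a4 x ξ (nr_mono hle h)⟩
    obtain ⟨M, hM⟩ := a1 κ hκ k hk
    exact ⟨M, fun x ξ h => hM x ξ (nr_mono hle h)⟩
  have mono2h : ∀ {e : ℝ}, e ≤ ε₀ → P.T2h e := by
    intro e hle
    obtain ⟨C2, hC2⟩ := h2h
    exact ⟨C2, fun x ξ h => hC2 x ξ (nr_mono hle h)⟩
  have monoH : ∀ {e : ℝ}, e ≤ ε₀ → HqC P e := by
    intro e hle
    obtain ⟨C3, hC3⟩ := hH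
    exact ⟨C3, fun x ξ h => hC3 x ξ (nr_mono hle h)⟩
  have monoB : ∀ {e : ℝ}, e ≤ ε₀ → BaseCh P e := by
    intro e hle
    obtain ⟨CB, hCB⟩ := hB
    exact ⟨CB, fun x ξ h => hCB x ξ (nr_mono hle h)⟩
  obtain ⟨E, hE1, hE⟩ := hup
  obtain ⟨CA, hCA⟩ := hA
  obtain ⟨CR, hCR1, hCR⟩ := hall
  -- one constant for everything
  have hA' : ∃ C : ℝ, ∀ x ξ, 0 < P.Bu.nu x ξ 0 → ∀ s : ℝ, 0 ≤ s →
      0 < P.Bu.nu (L.φ s x) ξ 0 ∧ ‖P.gr (L.φ s x) ξ 0‖ ≤ C * ‖P.gr x ξ 0‖ := by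
    refine ⟨max |CA| CR, fun x ξ hx s hs => ⟨(hCA x ξ hx s hs).1, (hCA x ξ hx s hs).2.trans ?_⟩⟩
    have h1 : Real.exp (-(P.Ra.a * P.sg s x)) ≤ 1 := by
      rw [Real.exp_le_one_iff]
      have := mul_nonneg ha.le (Clock.sg_nonneg (clk P) hs x)
      have e : P.sg s x = Clock.sg L P.Ra.c s x := rfl
      rw [e]
      linarith
    refine mul_le_mul_of_nonneg_right ?_ (norm_nonneg _)
    calc CA * Real.exp (-(P.Ra.a * P.sg s x)) ≤ |CA| * Real.exp (-(P.Ra.a * P.sg s x)) :=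
          mul_le_mul_of_nonneg_right (le_abs_self _) (Real.exp_pos _).le
      _ ≤ |CA| * 1 := mul_le_mul_of_nonneg_left h1 (abs_nonneg _)
      _ = |CA| := mul_one _
      _ ≤ _ := le_max_left _ _
  obtain ⟨ρ, C, hρe, S0⟩ := exists_basC he0 (fun x => th_nonneg P 1 x) hE1 hge hE hA' hb
    (mono2a he1) (mono2h he1) (monoH he1)
  obtain ⟨C', hC'⟩ : ∃ C' : ℝ, C' = max C (max |CA| CR) := ⟨_, rfl⟩
  have c1 : C ≤ C' := by rw [hC']; exact le_max_left _ _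
  have c2 : |CA| ≤ C' := by rw [hC']; exact (le_max_left _ _).trans (le_max_right _ _)
  have c3 : CR ≤ C' := by rw [hC']; exact (le_max_right _ _).trans (le_max_right _ _)
  have hCp := S0.C_pos
  have hC'p : 0 < C' := hCp.trans_le c1
  obtain ⟨ρ₁, hρ₁⟩ : ∃ r : ℝ, r = min ρ (1 / (4 * C')) := ⟨_, rfl⟩
  have r1 : ρ₁ ≤ ρ := by rw [hρ₁]; exact min_le_left _ _
  have r0 : 0 < ρ₁ := by rw [hρ₁]; exact lt_min S0.ρ_pos (by positivity)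
  have S : BasC P ρ₁ C' E (th P 1) := by
    refine ⟨S0.θ_nonneg, S0.E_ge, r0, r1.trans S0.ρ_le, S0.C_ge.trans c1,
      fun x ξ h => S0.sm x ξ (nr_mono r1 h), fun x ξ h => S0.near x ξ (nr_mono r1 h),
      fun k hk => ?_, fun x ξ h q hq => (S0.b2 x ξ (nr_mono r1 h) q hq).trans c1,
      fun x ξ h => (S0.z x ξ (nr_mono r1 h)).trans
        (mul_le_mul_of_nonneg_right c1 (norm_nonneg _)),
      fun x ξ h q hq => ?_, fun x ξ h s hs => ?_, S0.ge, S0.up⟩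
    · obtain ⟨M, hM⟩ := S0.bk k hk
      exact ⟨M, fun x ξ h => hM x ξ (nr_mono r1 h)⟩
    · obtain ⟨f1, f2, f3, f4, f5⟩ := S0.hq x ξ (nr_mono r1 h) q hq
      exact ⟨f1, f2, f3, f4.trans (mul_le_mul_of_nonneg_right c1 (norm_nonneg _)), f5⟩
    · obtain ⟨g1, g2⟩ := S0.ang x ξ h s hs
      exact ⟨g1, g2.trans (mul_le_mul_of_nonneg_right c1 (norm_nonneg _))⟩
  have hρ₁e : ρ₁ ≤ e₀ := r1.trans hρe
  have hρ₁ε : ρ₁ ≤ ε₀ := hρ₁e.trans he1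
  obtain ⟨ρ', hρ'0, hρ'ρ, hG⟩ := exists_gd3 (η := η) S
    (fun x ξ hx s hs => (hCA x ξ hx s hs).2.trans (mul_le_mul_of_nonneg_right
      (mul_le_mul_of_nonneg_right ((le_abs_self _).trans c2) (Real.exp_pos _).le)
      (norm_nonneg _)))
    (fun t ht x q => ⟨(hCR t ht x q).1.trans (mul_le_mul_of_nonneg_right c3 (norm_nonneg _)),
      (hCR t ht x q).2.trans (mul_le_mul_of_nonneg_right (mul_le_mul_of_nonneg_right c3
        (Real.exp_pos _).le) (norm_nonneg _))⟩) hη0 hη1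
    (fun x ξ h t ht => by
      refine (hSg x ξ (nr_mono (hρ₁e.trans he2) h) t ht).trans ?_
      have h1 : P.Ra.c₀ * t ≤ P.sg t x := Clock.sg_lo (clk P) ht x
      calc η * P.Ra.c₀ * t = η * (P.Ra.c₀ * t) := by ring
        _ ≤ η * P.sg t x := mul_le_mul_of_nonneg_left h1 hη0.le) (monoB hρ₁ε)
    fun ξ v => (hM ξ v).mono fun x hx => nr_mono hρ₁ε hx
  obtain ⟨m, hm⟩ : ∃ m : ℝ, m = (1 + (P.Ra.b * (1 + η) - P.Ra.a * (1 - η)) / P.Ra.a) / 2 :=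
    ⟨_, rfl⟩
  have hnum : P.Ra.b * (1 + η) - P.Ra.a * (1 - η) = P.Ra.b - P.Ra.a + η * (P.Ra.a + P.Ra.b) := by
    ring
  have hm0 : 0 ≤ (P.Ra.b * (1 + η) - P.Ra.a * (1 - η)) / P.Ra.a := by
    rw [hnum, hη2]
    apply div_nonneg <;> linarith
  have hm1 : (P.Ra.b * (1 + η) - P.Ra.a * (1 - η)) / P.Ra.a < 1 := by
    rw [hnum, hη2, div_lt_one ha]; linarith
  have hm2 : 0 < m := by rw [hm]; linarith
  have hm3 : m < 1 := by rw [hm]; linarith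
  have hm4 : P.Ra.b * (1 + η) - P.Ra.a * (1 - η) < m * P.Ra.a := by
    rw [← div_lt_iff₀ ha, hm]; linarith
  have hall' : ∀ κ : ℝ, m ≤ κ → κ < 1 → ∃ K, Gd3 P ρ₁ C' E ρ' κ K η := fun κ h1 h2 =>
    hG κ (hm2.trans_le h1) h2 (by
      have : m * P.Ra.a ≤ κ * P.Ra.a := mul_le_mul_of_nonneg_right h1 ha.le
      linarith)
  have hz : ∀ κ : ℝ, κ < 1 → ∃ C, ∀ x ξ, P.Nr ρ' x ξ → DifferentiableAt ℝ (P.hh x ξ) 0 ∧
      ‖fderiv ℝ (P.hh x ξ) 0 - fderiv ℝ (P.Aq x ξ) 0‖ ≤ C * ‖P.gr x ξ 0‖ ^ κ := by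
    intro κ hκ
    obtain ⟨K, hK⟩ := hall' (max κ m) (le_max_right _ _) (max_lt hκ hm3)
    obtain ⟨K', hK'0, hK'⟩ := hK.centre
    refine ⟨K', fun x ξ h => ?_⟩
    obtain ⟨h1, h2⟩ := hK' x ξ h
    refine ⟨h1, h2.trans (mul_le_mul_of_nonneg_left ?_ hK'0)⟩
    exact rpow_max (norm_nonneg _) (h.2.trans (hρ'ρ.trans S.ρ_le))
      (hm2.trans_le (le_max_right _ _)) (le_max_left _ _)
  have hle : ρ' ≤ ε₀ := hρ'ρ.trans hρ₁ε
  obtain ⟨ε₁, hε1, hε2, hε3⟩ := t3_quant P hρ'0 hRP (mono2a hle) (mono2h hle) (monoH hle)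
    (monoB hle) hz
  refine ⟨ε₁, hε1, hε2.trans hle, fun ε hε => ⟨fun x ξ h => ?_, fun κ hκ => ?_⟩⟩
  · obtain ⟨K, hK⟩ := hall' m le_rfl hm3
    exact ⟨fun q hq => (hK.glob h hq).1.contDiffWithinAt, fun q hq => (hK.glob h hq).2⟩
  · obtain ⟨K, hK⟩ := hε3 κ hκ
    exact ⟨K, fun x ξ h => hK x ξ (nr_mono hε h)⟩

end Vale.Agent.P207.N4.Y.H988.CT
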