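import Vale.Agent.P207.N7.H988.T3RC
import Vale.Agent.P207.N7.H751.BaseCh
import Vale.Agent.P207.N7.H790.AqC
import Vale.Agent.P207.N7.H790.T2aMain
import Vale.Agent.P207.N7.H469.T2Main

/-!
# P207, line N7 (Theorem P), row T3: **(T3) holds over `PicG`, with the clock**

The stable holonomy is of class `C¹`, with invertible derivative, and `Dh = D Aq + O(t ^ κ)` for
every `κ < 1`.
-/

set_option maxSynthPendingDepth 3
set_option linter.all false

open Set Filter Topology Metric MeasureTheory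
open scoped ContDiff

noncomputable section

namespace Vale.Agent.P207.N4.Y.H988

open Vale.Agent.P207.N3
open H761 (AngF BaseCh HqC)

variable [Dim]

variable {Γ X B : Type} [Group Γ] [MetricSpace X] [ProperSpace X] [MulAction Γ X]
  [IsIsometricSMul Γ X] [TopologicalSpace B] [CompactSpace B] [T2Space B] [MulAction Γ B]
  [ContinuousConstSMul Γ B] {L : Leaf Γ X B} [MeasurableSpace B] [BorelSpace B] {V : Type}
  [NormedAddCommGroup V] [NormedSpace ℝ V] [FiniteDimensional ℝ V]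

theorem angF_of {P : Pic L V} (hA : H469.AngR P) : AngF P := by
  obtain ⟨C, -, hC⟩ := hA
  exact ⟨C, fun x ξ h s hs => ⟨(hC x ξ h s hs).1, (hC x ξ h s hs).2.1⟩⟩

/-- **(T3)** -/
theorem t3 (P : PicG L V) : ∃ ε₁ : ℝ, 0 < ε₁ ∧ ∀ ε ≤ ε₁, P.toPic.T3 ε := by
  have hA := H469.angR P
  have hR := H832.rateP P.toPic
  obtain ⟨e1, he1, h2a⟩ := H790.t2a P.toPic hA
  obtain ⟨e2, he2, he2', h2h⟩ := H709.t2h P.toPic (one_pos) (H469.t2dG P 1)
  obtain ⟨e3, he3, K, hK, hhq⟩ := H709.exists_hq P.toPic (ε := 1) one_pos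
  obtain ⟨H, hH, har⟩ := H469.harnackG P
  obtain ⟨e4, he4, hB⟩ := H751.baseCh P hA
  obtain ⟨e5, he5, hM⟩ := H790.exists_AqC P.toPic
  obtain ⟨e, he⟩ : ∃ e : ℝ, e = min (min e1 e2) (min e3 (min e4 e5)) := ⟨_, rfl⟩
  have p0 : 0 < e := by
    rw [he]
    exact lt_min (lt_min he1 he2) (lt_min he3 (lt_min he4 he5))
  have p1 : e ≤ e1 := by rw [he]; exact (min_le_left _ _).trans (min_le_left _ _)
  have p2 : e ≤ e2 := by rw [he]; exact (min_le_left _ _).trans (min_le_right _ _)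
  have p3 : e ≤ e3 := by rw [he]; exact (min_le_right _ _).trans (min_le_left _ _)
  have p4 : e ≤ e4 := by
    rw [he]; exact ((min_le_right _ _).trans (min_le_right _ _)).trans (min_le_left _ _)
  have p5 : e ≤ e5 := by
    rw [he]; exact ((min_le_right _ _).trans (min_le_right _ _)).trans (min_le_right _ _)
  have hHq : HqC P.toPic e := by
    refine ⟨K * H, fun x ξ h q hq => ?_⟩
    have hq' : q ∈ closedBall (0 : E2) (7 / 4) := by
      rw [mem_ball_zero_iff] at hq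
      rw [mem_closedBall_zero_iff]
      linarith
    obtain ⟨-, -, -, -, h5, -⟩ := hhq x ξ (CT.nr_mono p3 h) q hq'
    refine h5.trans ?_
    rw [mul_assoc]
    exact mul_le_mul_of_nonneg_left (har x ξ h.1 q hq) hK
  have h2h' : P.toPic.T2h e := by
    obtain ⟨C2, hC2⟩ := h2h
    exact ⟨C2, fun x ξ h => hC2 x ξ (CT.nr_mono p2 h)⟩
  obtain ⟨ε₁, h1, -, h3⟩ := CT.t3_of_C P.Ra.pinch p0 hR (CT.P_ge P.toPic) (CT.exists_up P.toPic)
    (CT.rate_allC P.toPic hR) (CT.sgN P.toPic) (angF_of hA) (h2a e p0 p1) h2h' hHq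
    (hB e p4) (fun ξ v => (hM e p5 ξ).clm_apply continuousOn_const)
  exact ⟨ε₁, h1, h3⟩

end Vale.Agent.P207.N4.Y.H988
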