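import Vale.Agent.P207.N7.H988.T3EC
import Vale.Agent.P207.N7.H832.RateP
import Vale.Agent.P207.N7.H734.NearC

/-!
# P207, row T3 (Theorem P): the rates for all times
-/

set_option maxSynthPendingDepth 3
set_option linter.all false

open Set Filter Topology Metric MeasureTheory
open scoped ContDiff

noncomputable section

namespace Vale.Agent.P207.N4.Y.H988.CT

open Vale.Agent.P207.N3

variable [Dim]

variable {Γ X B : Type} [Group Γ] [MetricSpace X] [ProperSpace X] [MulAction Γ X]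
  [IsIsometricSMul Γ X] [TopologicalSpace B] [CompactSpace B] [T2Space B] [MulAction Γ B]
  [ContinuousConstSMul Γ B] {L : Leaf Γ X B} [MeasurableSpace B] [BorelSpace B] {V : Type}
  [NormedAddCommGroup V] [NormedSpace ℝ V] [FiniteDimensional ℝ V] (P : Pic L V)

/-- the flow expands -/
theorem P_ge (t : ℝ) (ht : 0 ≤ t) (x : X) (q : E2) : ‖q‖ ≤ ‖P.Af.P t x q‖ := by
  have h := (H832.rate_aff P.S.M P.Af P.Ra.lo P.Ra.hi t ht x q).1
  refine le_trans ?_ h
  exact le_mul_of_one_le_left (norm_nonneg _)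
    (Real.one_le_exp (mul_nonneg P.Ra.a₀_pos.le ht))

/-- the crude upper rate -/
theorem P_le {t s : ℝ} (ht : 0 ≤ t) (hts : t ≤ s) (x : X) (q : E2) :
    ‖P.Af.P t x q‖ ≤ Real.exp (|P.Ra.b₀| * s) * ‖q‖ := by
  have h := (H832.rate_aff P.S.M P.Af P.Ra.lo P.Ra.hi t ht x q).2
  refine h.trans (mul_le_mul_of_nonneg_right (Real.exp_le_exp.2 ?_) (norm_nonneg _))
  calc P.Ra.b₀ * t ≤ |P.Ra.b₀| * t := mul_le_mul_of_nonneg_right (le_abs_self _) ht
    _ ≤ |P.Ra.b₀| * s := mul_le_mul_of_nonneg_left hts (abs_nonneg _)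

/-- the rate of one step -/
theorem exists_up : ∃ E : ℝ, 1 ≤ E ∧ ∀ x z q, ‖P.Af.P (th P 1 x) z q‖ ≤ E * ‖q‖ := by
  have hc := P.Ra.c₀_pos
  refine ⟨Real.exp (|P.Ra.b₀| * (1 / P.Ra.c₀)), Real.one_le_exp (by positivity),
    fun x z q => P_le P (th_nonneg P 1 x) ?_ z q⟩
  have h := Clock.tm_le (clk P) (Nat.cast_nonneg 1) x
  rw [Nat.cast_one] at h
  rw [th, Nat.cast_one]
  exact h

/-- the rates for all times -/
theorem rate_allC (hR : P.RateP) : ∃ C : ℝ, 1 ≤ C ∧ ∀ t : ℝ, 0 ≤ t → ∀ x q,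
    Real.exp (P.Ra.a * P.sg t x) * ‖q‖ ≤ C * ‖P.Af.P t x q‖ ∧
      ‖P.Af.P t x q‖ ≤ C * Real.exp (P.Ra.b * P.sg t x) * ‖q‖ := by
  have ha := P.Ra.a_pos
  have hb : 0 < P.Ra.b := b_pos P
  have hT := P.Ra.T_pos
  have hc1 : 0 < P.Ra.c₁ := (clk P).c₁_pos
  obtain ⟨C, hC⟩ : ∃ C : ℝ, C = Real.exp (P.Ra.a * (P.Ra.c₁ * P.Ra.T) + |P.Ra.b₀| * P.Ra.T) :=
    ⟨_, rfl⟩
  have hC1 : 1 ≤ C := by rw [hC]; exact Real.one_le_exp (by positivity)
  refine ⟨C, hC1, fun t ht x q => ?_⟩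
  have hs : 0 ≤ P.sg t x := Clock.sg_nonneg (clk P) ht x
  rcases le_or_gt P.Ra.T t with h | h
  · obtain ⟨h1, h2⟩ := hR t h x q
    refine ⟨h1.trans (le_mul_of_one_le_left (norm_nonneg _) hC1), h2.trans ?_⟩
    exact mul_le_mul_of_nonneg_right (le_mul_of_one_le_left (Real.exp_pos _).le hC1)
      (norm_nonneg _)
  · constructor
    · have h1 : P.sg t x ≤ P.Ra.c₁ * t := Clock.sg_hi (clk P) ht x
      have h2 : P.sg t x ≤ P.Ra.c₁ * P.Ra.T :=
        h1.trans (mul_le_mul_of_nonneg_left h.le hc1.le)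
      have h3 : Real.exp (P.Ra.a * P.sg t x) ≤ C := by
        rw [hC, Real.exp_le_exp]
        have h4 := mul_le_mul_of_nonneg_left h2 ha.le
        have h5 : 0 ≤ |P.Ra.b₀| * P.Ra.T := by positivity
        linarith
      exact mul_le_mul h3 (P_ge P t ht x q) (norm_nonneg _) (by linarith)
    · have h1 := P_le P ht h.le x q
      have h2 : Real.exp (|P.Ra.b₀| * P.Ra.T) ≤ C := by
        rw [hC, Real.exp_le_exp]
        have h5 : 0 ≤ P.Ra.a * (P.Ra.c₁ * P.Ra.T) := by positivity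
        linarith
      have h3 : 1 ≤ Real.exp (P.Ra.b * P.sg t x) := Real.one_le_exp (mul_nonneg hb.le hs)
      refine h1.trans (mul_le_mul_of_nonneg_right (h2.trans ?_) (norm_nonneg _))
      exact le_mul_of_one_le_right (by linarith) h3

/-- the clocks of close pairs, from 734's `near_sg` -/
theorem sgN : SgN P := by
  intro η hη
  obtain ⟨ε, hε, h⟩ := H734.near_sg P hη
  refine ⟨ε, hε, fun x ξ hx t ht => ?_⟩
  rw [abs_sub_comm]
  exact ((h x ξ hx).2 t ht).1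

end Vale.Agent.P207.N4.Y.H988.CT
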